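import Vale.Agent.Lib.P154Anti.Cert.D11F.Table0
import Vale.Agent.Lib.P154Anti.Cert.D11F.Masses

namespace Vale.Agent.Lib.P154Anti.Cert.D11F

open Vale.Agent.Lib.P154Anti

theorem L30 : lvlOK3 cfg par tblI0 tblE0 vE vc Q30 17589158637156 Q31 = true := by decide +kernel

theorem L31 : lvlOK3 cfg par tblI0 tblE0 vE vc Q31 17588691070876 Q32 = true := by decide +kernel

theorem L32 : lvlOK3 cfg par tblI0 tblE0 vE vc Q32 17589110289718 Q33 = true := by decide +kernel

theorem L33 : lvlOK3 cfg par tblI0 tblE0 vE vc Q33 17588955480504 Q34 = true := by decide +kernel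

theorem L34 : lvlOK3 cfg par tblI0 tblE0 vE vc Q34 17588963011514 Q35 = true := by decide +kernel

theorem L35 : lvlOK3 cfg par tblI0 tblE0 vE vc Q35 17588969902362 Q36 = true := by decide +kernel

theorem L36 : lvlOK3 cfg par tblI0 tblE0 vE vc Q36 17588913321076 Q37 = true := by decide +kernel

theorem L37 : lvlOK3 cfg par tblI0 tblE0 vE vc Q37 17588825820415 Q38 = true := by decide +kernel

theorem L38 : lvlOK3 cfg par tblI0 tblE0 vE vc Q38 17588714931780 Q39 = true := by decide +kernel

theorem L39 : lvlOK3 cfg par tblI0 tblE0 vE vc Q39 17588872542116 Q40 = true := by decide +kernel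

end Vale.Agent.Lib.P154Anti.Cert.D11F
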