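import Vale.Agent.Lib.P154Anti.Cert.D11F.Table0
import Vale.Agent.Lib.P154Anti.Cert.D11F.Masses

namespace Vale.Agent.Lib.P154Anti.Cert.D11F

open Vale.Agent.Lib.P154Anti

theorem L50 : lvlOK3 cfg par tblI0 tblE0 vE vc Q50 17589290022203 Q51 = true := by decide +kernel

theorem L51 : lvlOK3 cfg par tblI0 tblE0 vE vc Q51 17588873800661 Q52 = true := by decide +kernel

theorem L52 : lvlOK3 cfg par tblI0 tblE0 vE vc Q52 17589030442997 Q53 = true := by decide +kernel

theorem L53 : lvlOK3 cfg par tblI0 tblE0 vE vc Q53 17589316799411 Q54 = true := by decide +kernel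

end Vale.Agent.Lib.P154Anti.Cert.D11F
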